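import Mathlib

open scoped NNReal Classical

namespace Vale.Agent.P331

/-- An online rule on `Fin n`: from the samples, a seed of `n` bits, the earlier arrivals with their
values (in order of arrival) and the current arrival with its value, it decides to accept or not. -/
abbrev Rule (n : ℕ) : Type :=
  (Fin n → ℝ≥0) → (Fin n → Bool) → List (Fin n × ℝ≥0) → Fin n × ℝ≥0 → Bool

/-- The arrivals with their values; `π k` is the element arriving at time `k`. -/
def arrivals {n : ℕ} (V : Fin n → ℝ≥0) (π : Equiv.Perm (Fin n)) : List (Fin n × ℝ≥0) :=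
  List.ofFn fun k => (π k, V (π k))

/-- The set accepted by the rule `ρ` with samples `S`, values `V`, seed `R` and order `π`. -/
def accepted {n : ℕ} (ρ : Rule n) (S V : Fin n → ℝ≥0) (R : Fin n → Bool) (π : Equiv.Perm (Fin n)) :
    Finset (Fin n) :=
  Finset.univ.filter fun e => ρ S R ((arrivals V π).take (π.symm e)) (e, V e) = true

/-- The largest value of an independent set. -/
noncomputable def opt {n : ℕ} (M : Matroid (Fin n)) (v : Fin n → ℝ≥0) : ℝ≥0 :=
  (Finset.univ.filter fun I : Finset (Fin n) => M.Indep (I : Set (Fin n))).sup fun I => ∑ e ∈ I, v e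

end Vale.Agent.P331
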