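import Mathlib

/-!
The greedy basis of a matroid for a linear order of the elements.
-/

open Finset
open scoped NNReal Classical

namespace Vale.Agent.P331

variable {E β : Type} [LinearOrder β] {M : Matroid E}

/-- membership in the greedy basis for the key `k` -/
def InB (M : Matroid E) (k : E → β) (e : E) : Prop := e ∉ M.closure {f | k e < k f}

theorem span_up [Finite E] (hE : M.E = Set.univ) (k : E → β) (U : Set E)
    (hU : ∀ f ∈ U, ∀ g, k f < k g → g ∈ U) : U ⊆ M.closure {f | f ∈ U ∧ InB M k f} := by
  have wf : WellFounded fun a b : E => k b < k a :=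
    @Finite.wellFounded_of_trans_of_irrefl E _ _ ⟨fun _ _ _ h1 h2 => h2.trans h1⟩
      ⟨fun _ => lt_irrefl _⟩
  intro f
  induction f using wf.induction with
  | _ f ih =>
    intro hf
    by_cases hB : InB M k f
    · exact M.mem_closure_of_mem' ⟨hf, hB⟩ (by simp [hE])
    · exact Matroid.closure_subset_closure_of_subset_closure
        (fun g hg => ih g hg (hU f hf g hg)) (not_not.mp hB)

theorem indep_InB (hE : M.E = Set.univ) {k : E → β} (hk : Function.Injective k) (I : Finset E) :
    (∀ e ∈ I, InB M k e) → M.Indep (I : Set E) := by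
  induction I using Finset.induction_on_min_value k with
  | empty => simp
  | insert a s ha hmin ih =>
    intro h
    have hs := ih fun e he => h e (mem_insert_of_mem he)
    rw [coe_insert, hs.insert_indep_iff_of_notMem (by simpa using ha)]
    refine ⟨by simp [hE], fun hc => h a (mem_insert_self _ _) (M.closure_subset_closure ?_ hc)⟩
    intro x hx
    exact lt_of_le_of_ne (hmin x hx) fun he => ha (hk he ▸ hx)

theorem sum_le_of_card (w : E → ℝ≥0) (I : Finset E) : ∀ J : Finset E,
    (∀ t, (I.filter fun e => t ≤ w e).card ≤ (J.filter fun e => t ≤ w e).card) →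
      ∑ e ∈ I, w e ≤ ∑ e ∈ J, w e := by
  induction I using Finset.induction_on_max_value w with
  | empty => simp
  | insert a s ha hmax ih =>
    intro J h
    obtain ⟨y, hy⟩ : (J.filter fun e => w a ≤ w e).Nonempty :=
      card_pos.mp (lt_of_lt_of_le (card_pos.mpr ⟨a, by simp⟩) (h (w a)))
    obtain ⟨hyJ, hay⟩ := mem_filter.mp hy
    rw [sum_insert ha, ← add_sum_erase J w hyJ]
    refine add_le_add hay (ih _ fun t => ?_)
    by_cases ht : t ≤ w a
    · have h1 := h t
      rw [filter_insert, if_pos ht, card_insert_of_notMem (by simp [ha])] at h1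
      rw [filter_erase, card_erase_of_mem (mem_filter.mpr ⟨hyJ, ht.trans hay⟩)]
      omega
    · rw [filter_eq_empty_iff.mpr fun x hx hx' => ht (hx'.trans (hmax x hx))]
      simp

theorem sum_le_InB [Fintype E] (hE : M.E = Set.univ) {k : E → β} {w : E → ℝ≥0}
    (hw : ∀ e f, k e < k f → w e ≤ w f) {I : Finset E} (hI : M.Indep (I : Set E)) :
    ∑ e ∈ I, w e ≤ ∑ e ∈ univ.filter (InB M k), w e := by
  refine sum_le_of_card w I _ fun t => ?_
  have h1 := span_up hE k {f | t ≤ w f} fun f hf g hg => le_trans hf (hw f g hg)
  have h2 : M.Indep ((I.filter fun e => t ≤ w e : Finset E) : Set E) :=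
    hI.subset fun x hx => (mem_filter.mp hx).1
  have h3 := h2.encard_le_eRk_of_subset (X := M.closure {f | f ∈ {f | t ≤ w f} ∧ InB M k f})
    (fun x hx => h1 (mem_filter.mp hx).2)
  rw [Matroid.eRk_closure_eq] at h3
  have h4 := h3.trans (M.eRk_le_encard _)
  have e : {f | f ∈ {f | t ≤ w f} ∧ InB M k f} =
      (((univ.filter (InB M k)).filter fun e => t ≤ w e : Finset E) : Set E) := by
    ext x
    simp [and_comm]
  rw [e, Set.encard_coe_eq_coe_finsetCard, Set.encard_coe_eq_coe_finsetCard] at h4
  exact_mod_cast h4

theorem exch_aux {k k' : E → β} (hk : Function.Injective k) {e f : E}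
    (h : ∀ g, g ≠ e → k g = k' g) (hf : f ≠ e) (h1 : InB M k f) (h2 : ¬ InB M k' f) :
    k e < k f ∧ e ∈ M.closure (insert f {g | k f < k g}) ∧ e ∉ M.closure {g | k f < k g} := by
  have hsub : {g | k' f < k' g} ⊆ insert e {g | k f < k g} := by
    intro g hg
    by_cases hge : g = e
    · exact .inl hge
    · right
      show k f < k g
      rw [h f hf, h g hge]
      exact hg
  have h3 : f ∈ M.closure (insert e {g | k f < k g}) := M.closure_subset_closure hsub (not_not.mp h2)
  have h4 := Matroid.closure_exchange ⟨h3, h1⟩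
  refine ⟨?_, h4.1, h4.2⟩
  rcases lt_trichotomy (k e) (k f) with c | c | c
  · exact c
  · exact absurd (hk c).symm hf
  · rw [Set.insert_eq_of_mem (show e ∈ {g | k f < k g} from c)] at h3
    exact absurd h3 h1

theorem exch {k k' : E → β} (hk : Function.Injective k) {e f : E}
    (h : ∀ g, g ≠ e → k g = k' g) (hf : f ≠ e) (h1 : InB M k f) (h2 : ¬ InB M k' f) :
    ¬ InB M k e ∧ ∀ g, g ≠ e → g ≠ f → (InB M k g ↔ InB M k' g) := by
  obtain ⟨a1, a2, a3⟩ := exch_aux hk h hf h1 h2
  refine ⟨fun hc => hc (M.closure_subset_closure ?_ a2), fun g hge hgf => ?_⟩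
  · rintro x (rfl | hx)
    · exact a1
    · exact a1.trans hx
  rcases lt_trichotomy (k g) (k f) with c | c | c
  · have hX : e ∈ M.closure {x | x ≠ e ∧ k g < k x} := by
      refine M.closure_subset_closure ?_ a2
      rintro x (rfl | hx)
      · exact ⟨hf, c⟩
      · refine ⟨?_, c.trans hx⟩
        rintro rfl
        exact lt_asymm a1 hx
    have key : ∀ κ : E → β, (∀ x, x ≠ e → κ x = k x) →
        M.closure {x | κ g < κ x} = M.closure {x | x ≠ e ∧ k g < k x} := by
      intro κ hκ
      apply Set.Subset.antisymm
      · rw [← Matroid.closure_insert_eq_of_mem_closure hX]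
        refine M.closure_subset_closure fun x hx => ?_
        by_cases hxe : x = e
        · exact .inl hxe
        · right
          refine ⟨hxe, ?_⟩
          rw [← hκ g hge, ← hκ x hxe]
          exact hx
      · refine M.closure_subset_closure fun x hx => ?_
        show κ g < κ x
        rw [hκ g hge, hκ x hx.1]
        exact hx.2
    rw [InB, InB, key k fun _ _ => rfl, key k' fun x hx => (h x hx).symm]
  · exact absurd (hk c) hgf
  · constructor
    · intro b1
      by_contra b2
      obtain ⟨-, c2, -⟩ := exch_aux hk h hge b1 b2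
      refine a3 (M.closure_subset_closure ?_ c2)
      rintro x (rfl | hx)
      · exact c
      · exact c.trans hx
    · intro b1 b2
      refine b1 (M.closure_subset_closure (fun x hx => ?_) b2)
      have hxe : x ≠ e := by
        rintro rfl
        exact lt_asymm (a1.trans c) hx
      show k' g < k' x
      rw [← h g hge, ← h x hxe]
      exact hx

end Vale.Agent.P331
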