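import Vale.Agent.P331.Greedy

/-!
The coin process: every arrival acts by an involution on (coins, bits).
-/

open Finset Function
open scoped Classical

namespace Vale.Agent.P331

variable {E : Type} [DecidableEq E]

/-- the decision to switch to the arriving value, and the new bits -/
noncomputable def core (B₀ B₁ : E → Prop) (P : Finset E) (e : E) (a : E → Bool) : Bool × (E → Bool) :=
  if h : ∃ f ∈ P, ¬ (B₀ f ↔ B₁ f) then
    if (if B₀ h.choose then !a h.choose else a e) = true then
      (true, update (update a e (!a h.choose)) h.choose (!a e))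
    else (false, a)
  else (a e, a)

/-- flip one coin -/
def fl (e : E) (c : E → Bool) : E → Bool := update c e (!c e)

theorem fl_fl (e : E) (c : E → Bool) : fl e (fl e c) = c := by simp [fl]

/-- the exchange property -/
def Exch (β : (E → Bool) → E → Prop) : Prop :=
  ∀ c e f, f ≠ e → β c f → ¬ β (fl e c) f → ¬ β c e ∧ ∀ g, g ≠ e → g ≠ f → (β c g ↔ β (fl e c) g)

/-- one arrival -/
noncomputable def sg (β : (E → Bool) → E → Prop) (P : Finset E) (e : E)
    (s : (E → Bool) × (E → Bool)) : (E → Bool) × (E → Bool) :=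
  (if (core (β s.1) (β (fl e s.1)) P e s.2).1 = true then fl e s.1 else s.1,
    (core (β s.1) (β (fl e s.1)) P e s.2).2)

variable {β : (E → Bool) → E → Prop} {P : Finset E} {e : E}

theorem uniq (H : Exch β) (he : e ∉ P) {c : E → Bool} {f : E} (hf : f ∈ P)
    (h : ¬ (β c f ↔ β (fl e c) f)) : ∀ g ∈ P, g ≠ f → (β c g ↔ β (fl e c) g) := by
  intro g hg hgf
  have hfe : f ≠ e := fun h => he (h ▸ hf)
  have hge : g ≠ e := fun h => he (h ▸ hg)
  by_cases h0 : β c f
  · exact (H c e f hfe h0 (by tauto)).2 g hge hgf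
  · have := (H (fl e c) e f hfe (by tauto) (by rwa [fl_fl])).2 g hge hgf
    rw [fl_fl] at this
    exact this.symm

theorem sg_pos (H : Exch β) (he : e ∉ P) {c a : E → Bool} {f : E} (hf : f ∈ P)
    (h : ¬ (β c f ↔ β (fl e c) f)) : sg β P e (c, a) =
      if (if β c f then !a f else a e) = true then (fl e c, update (update a e (!a f)) f (!a e))
      else (c, a) := by
  have hex : ∃ f ∈ P, ¬ (β c f ↔ β (fl e c) f) := ⟨f, hf, h⟩
  have hch : hex.choose = f := by
    by_contra hne
    exact hex.choose_spec.2 (uniq H he hf h _ hex.choose_spec.1 hne)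
  simp only [sg, core, dif_pos hex, hch]
  split_ifs <;> simp_all

theorem sg_neg {c a : E → Bool} (h : ∀ f ∈ P, (β c f ↔ β (fl e c) f)) :
    sg β P e (c, a) = if a e = true then (fl e c, a) else (c, a) := by
  have hex : ¬ ∃ f ∈ P, ¬ (β c f ↔ β (fl e c) f) := fun ⟨f, hf, h'⟩ => h' (h f hf)
  simp only [sg, core, dif_neg hex]
  split_ifs <;> rfl

theorem sg_sg (H : Exch β) (he : e ∉ P) (s : (E → Bool) × (E → Bool)) :
    sg β P e (sg β P e s) = s := by
  obtain ⟨c, a⟩ := s
  by_cases hex : ∃ f ∈ P, ¬ (β c f ↔ β (fl e c) f)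
  · obtain ⟨f, hf, h⟩ := hex
    have hfe : f ≠ e := fun h => he (h ▸ hf)
    rw [sg_pos H he hf h]
    by_cases hc : (if β c f then !a f else a e) = true
    · rw [if_pos hc, sg_pos H he hf (by rw [fl_fl]; tauto), if_pos, fl_fl]
      · congr 1
        funext g
        by_cases h1 : g = f
        · subst h1
          simp [hfe.symm]
        · by_cases h2 : g = e
          · subst h2
            simp [h1]
          · simp [h1, h2]
      · by_cases h0 : β c f
        · have h1 : ¬ β (fl e c) f := by tauto
          simpa [h0, h1, hfe.symm] using hc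
        · have h1 : β (fl e c) f := by tauto
          simpa [h0, h1] using hc
    · rw [if_neg hc, sg_pos H he hf h, if_neg hc]
  · have h : ∀ f ∈ P, (β c f ↔ β (fl e c) f) := fun f hf => by
      by_contra h'
      exact hex ⟨f, hf, h'⟩
    rw [sg_neg h]
    by_cases hc : a e = true
    · rw [if_pos hc, sg_neg (fun f hf => by rw [fl_fl]; exact (h f hf).symm), if_pos hc, fl_fl]
    · rw [if_neg hc, sg_neg h, if_neg hc]

theorem sg_other (s : (E → Bool) × (E → Bool)) {g : E} (hg : g ≠ e) : (sg β P e s).1 g = s.1 g := by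
  simp only [sg]
  split_ifs
  · simp [fl, hg]
  · rfl

theorem sg_spec (H : Exch β) (he : e ∉ P) (s : (E → Bool) × (E → Bool)) :
    (∀ g ∈ P, (β (sg β P e s).1 g ∧ (sg β P e s).2 g = true ↔ β s.1 g ∧ s.2 g = true)) ∧
      (β (sg β P e s).1 e ∧ (sg β P e s).2 e = true → (sg β P e s).1 e = !s.1 e) := by
  obtain ⟨c, a⟩ := s
  by_cases hex : ∃ f ∈ P, ¬ (β c f ↔ β (fl e c) f)
  · obtain ⟨f, hf, h⟩ := hex
    have hfe : f ≠ e := fun h => he (h ▸ hf)
    rw [sg_pos H he hf h]
    by_cases hc : (if β c f then !a f else a e) = true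
    · rw [if_pos hc]
      refine ⟨fun g hg => ?_, fun _ => by simp [fl]⟩
      by_cases h1 : g = f
      · subst h1
        by_cases h0 : β c g
        · have h1 : ¬ β (fl e c) g := by tauto
          simp only [h0, if_true] at hc
          simpa [h0, h1] using hc
        · simp only [h0, if_false] at hc
          simp [h0, hc]
      · have hge : g ≠ e := fun h => he (h ▸ hg)
        simp [h1, hge, uniq H he hf h g hg h1]
    · rw [if_neg hc]
      refine ⟨fun g _ => Iff.rfl, fun h' => ?_⟩
      by_cases h0 : β c f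
      · exact absurd h'.1 (H c e f hfe h0 (by tauto)).1
      · simp only [h0, if_false] at hc
        exact absurd h'.2 hc
  · have h : ∀ f ∈ P, (β c f ↔ β (fl e c) f) := fun f hf => by
      by_contra h'
      exact hex ⟨f, hf, h'⟩
    rw [sg_neg h]
    by_cases hc : a e = true
    · rw [if_pos hc]
      exact ⟨fun g hg => by simp [h g hg], fun _ => by simp [fl]⟩
    · rw [if_neg hc]
      exact ⟨fun g _ => Iff.rfl, fun h' => absurd h'.2 hc⟩

section time

variable {n : ℕ} {β : (Fin n → Bool) → Fin n → Prop}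

/-- the elements that arrive before time `k` -/
def bef (π : Equiv.Perm (Fin n)) (k : ℕ) : Finset (Fin n) := univ.filter fun g => (π.symm g : ℕ) < k

/-- the state at time `k` -/
noncomputable def st (β : (Fin n → Bool) → Fin n → Prop) (π : Equiv.Perm (Fin n))
    (s : (Fin n → Bool) × (Fin n → Bool)) : ℕ → (Fin n → Bool) × (Fin n → Bool)
  | 0 => s
  | k + 1 => if h : k < n then sg β (bef π k) (π ⟨k, h⟩) (st β π s k) else st β π s k

variable (π : Equiv.Perm (Fin n))

theorem not_bef {k : ℕ} (h : k < n) : π ⟨k, h⟩ ∉ bef π k := by simp [bef]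

theorem st_succ (s : (Fin n → Bool) × (Fin n → Bool)) {k : ℕ} (h : k < n) :
    st β π s (k + 1) = sg β (bef π k) (π ⟨k, h⟩) (st β π s k) := by simp [st, h]

theorem st_inj (H : Exch β) (k : ℕ) : Injective fun s => st β π s k := by
  induction k with
  | zero => exact fun _ _ h => h
  | succ k ih =>
    intro s s' h
    by_cases hk : k < n
    · simp only [st_succ π _ hk] at h
      apply ih
      have := congrArg (sg β (bef π k) (π ⟨k, hk⟩)) h
      rwa [sg_sg H (not_bef π hk), sg_sg H (not_bef π hk)] at this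
    · simp only [st, hk, dif_neg, not_false_eq_true] at h
      exact ih h

theorem st_early (s : (Fin n → Bool) × (Fin n → Bool)) (g : Fin n) :
    ∀ k : ℕ, k ≤ (π.symm g : ℕ) → (st β π s k).1 g = s.1 g := by
  intro k
  induction k with
  | zero => intro _; rfl
  | succ k ih =>
    intro hk
    have h : k < n := by have := (π.symm g).2; omega
    rw [st_succ π s h, sg_other, ih (by omega)]
    rintro rfl
    simp at hk

theorem st_late (H : Exch β) (s : (Fin n → Bool) × (Fin n → Bool)) (g : Fin n) :
    ∀ k, (π.symm g : ℕ) + 1 ≤ k → (st β π s k).1 g = (st β π s (π.symm g + 1)).1 g ∧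
      (β (st β π s k).1 g ∧ (st β π s k).2 g = true ↔
        β (st β π s (π.symm g + 1)).1 g ∧ (st β π s (π.symm g + 1)).2 g = true) := by
  intro k hk
  induction k, hk using Nat.le_induction with
  | base => exact ⟨rfl, Iff.rfl⟩
  | succ k hk ih =>
    by_cases h : k < n
    · have hg : g ∈ bef π k := by simp only [bef, mem_filter, mem_univ, true_and]; omega
      have hne : g ≠ π ⟨k, h⟩ := fun he => not_bef π h (he ▸ hg)
      rw [st_succ π s h, sg_other _ hne,
        (sg_spec H (not_bef π h) _).1 g hg]
      exact ih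
    · simpa only [st, h, dif_neg, not_false_eq_true] using ih

theorem st_acc (H : Exch β) (s : (Fin n → Bool) × (Fin n → Bool)) (g : Fin n)
    (h : β (st β π s n).1 g ∧ (st β π s n).2 g = true) : (st β π s n).1 g = !s.1 g := by
  have hk := (π.symm g).2
  obtain ⟨h1, h2⟩ := st_late π H s g n hk
  rw [h2, st_succ π s hk] at h
  rw [h1, st_succ π s hk, ← st_early π s g _ le_rfl]
  have e : π ⟨π.symm g, hk⟩ = g := by simp
  have := (sg_spec H (not_bef π hk) (st β π s (π.symm g))).2
  rw [e] at this h ⊢
  exact this h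

end time

end Vale.Agent.P331
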