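import Vale.Agent.P331.Defs
import Vale.Agent.P331.Proc

/-!
The rule, its simulation by the coin process, and the expectation.
-/

open Finset Function MeasureTheory
open scoped NNReal ENNReal Classical

namespace Vale.Agent.P331

variable {n : ℕ} (M : Matroid (Fin n))

/-- the order key -/
def key (w : Fin n → ℝ≥0) (e : Fin n) : ℝ≥0 ×ₗ Fin n := toLex (w e, e)

theorem key_inj (w : Fin n → ℝ≥0) : Injective (key w) := fun _ _ h =>
  congrArg (fun p => (ofLex p).2) h

theorem key_lt (w : Fin n → ℝ≥0) (e f : Fin n) :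
    key w e < key w f ↔ w e < w f ∨ w e = w f ∧ e < f := Prod.Lex.toLex_lt_toLex

theorem opt_eq (hE : M.E = Set.univ) (w : Fin n → ℝ≥0) :
    opt M w = ∑ e ∈ univ.filter (InB M (key w)), w e := by
  apply le_antisymm
  · refine Finset.sup_le fun I hI => sum_le_InB hE (fun e f h => ?_) (mem_filter.mp hI).2
    rcases (key_lt w e f).mp h with h | h
    · exact h.le
    · exact h.1.le
  · exact Finset.le_sup (f := fun I : Finset (Fin n) => ∑ e ∈ I, w e)
      (mem_filter.mpr ⟨mem_univ _, indep_InB hE (key_inj w) _ fun e he => (mem_filter.mp he).2⟩)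

/-- one arrival, on weights -/
noncomputable def step (s : (Fin n → ℝ≥0) × (Fin n → Bool) × Finset (Fin n)) (x : Fin n × ℝ≥0) :
    (Fin n → ℝ≥0) × (Fin n → Bool) × Finset (Fin n) :=
  (if (core (InB M (key s.1)) (InB M (key (update s.1 x.1 x.2))) s.2.2 x.1 s.2.1).1 = true then
      update s.1 x.1 x.2 else s.1,
    (core (InB M (key s.1)) (InB M (key (update s.1 x.1 x.2))) s.2.2 x.1 s.2.1).2, insert x.1 s.2.2)

/-- the rule -/
noncomputable def rule : Rule n := fun S R l x =>
  decide (InB M (key (step M (l.foldl (step M) (S, R, ∅)) x).1) x.1 ∧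
    (step M (l.foldl (step M) (S, R, ∅)) x).2.1 x.1 = true)

/-- the weights chosen by the coins -/
def wt (y : Fin n → Bool → ℝ≥0) (c : Fin n → Bool) (e : Fin n) : ℝ≥0 := y e (c e)

/-- the bases chosen by the coins -/
def bs (y : Fin n → Bool → ℝ≥0) (c : Fin n → Bool) : Fin n → Prop := InB M (key (wt y c))

theorem wt_fl (y : Fin n → Bool → ℝ≥0) (c : Fin n → Bool) (e : Fin n) :
    update (wt y c) e (y e (!c e)) = wt y (fl e c) := by
  funext g
  by_cases h : g = e
  · subst h
    simp [wt, fl]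
  · simp [wt, fl, h]

theorem bs_exch (y : Fin n → Bool → ℝ≥0) : Exch (bs M y) := fun c e f hf h1 h2 =>
  exch (key_inj _) (fun g hg => by simp [key, wt, fl, hg]) hf h1 h2

theorem step_sg (y : Fin n → Bool → ℝ≥0) (s : (Fin n → Bool) × (Fin n → Bool)) (P : Finset (Fin n))
    (e : Fin n) : step M (wt y s.1, s.2, P) (e, y e (!s.1 e)) =
      (wt y (sg (bs M y) P e s).1, (sg (bs M y) P e s).2, insert e P) := by
  simp only [step, sg, wt_fl]
  exact Prod.ext (apply_ite (wt y) _ _ _).symm rfl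

theorem sim (y : Fin n → Bool → ℝ≥0) (π : Equiv.Perm (Fin n)) (s : (Fin n → Bool) × (Fin n → Bool)) :
    ∀ k ≤ n, ((arrivals (wt y fun e => !s.1 e) π).take k).foldl (step M) (wt y s.1, s.2, ∅) =
      (wt y (st (bs M y) π s k).1, (st (bs M y) π s k).2, bef π k) := by
  intro k
  induction k with
  | zero => intro _; simp [st, bef]
  | succ k ih =>
    intro hk
    have h : k < n := hk
    rw [List.take_succ_eq_append_getElem (by simpa [arrivals] using h), List.foldl_append, ih h.le,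
      st_succ π s h]
    have e1 : (arrivals (wt y fun e => !s.1 e) π)[k]'(by simpa [arrivals] using h) =
        (π ⟨k, h⟩, y (π ⟨k, h⟩) (!(st (bs M y) π s k).1 (π ⟨k, h⟩))) := by
      rw [st_early π s _ k (by simp)]
      simp [arrivals, wt]
    rw [e1, List.foldl_cons, List.foldl_nil, step_sg]
    congr 2
    ext g
    simp only [bef, mem_insert, mem_filter, mem_univ, true_and]
    constructor
    · rintro (rfl | h')
      · simp
      · omega
    · intro h'
      by_cases hg : (π.symm g : ℕ) = k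
      · left
        rw [← Equiv.symm_apply_eq]
        exact Fin.ext hg
      · right
        omega

theorem mem_acc (y : Fin n → Bool → ℝ≥0) (π : Equiv.Perm (Fin n))
    (s : (Fin n → Bool) × (Fin n → Bool)) (g : Fin n) :
    g ∈ accepted (rule M) (wt y s.1) (wt y fun e => !s.1 e) s.2 π ↔
      bs M y (st (bs M y) π s n).1 g ∧ (st (bs M y) π s n).2 g = true := by
  have hk := (π.symm g).2
  have e : π ⟨π.symm g, hk⟩ = g := by simp
  rw [(st_late π (bs_exch M y) s g n hk).2, st_succ π s hk, e]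
  simp only [accepted, rule, mem_filter, mem_univ, true_and, decide_eq_true_eq]
  rw [sim M y π s _ hk.le]
  have e2 : wt y (fun e => !s.1 e) g = y g (!(st (bs M y) π s (π.symm g)).1 g) := by
    rw [st_early π s g _ le_rfl]
    rfl
  rw [e2, step_sg]
  rfl

/-- negate all coins -/
def ng (n : ℕ) : Equiv.Perm (Fin n → Bool) :=
  Function.Involutive.toPerm (fun (a : Fin n → Bool) g => !a g) fun a => by simp

theorem half (B : Finset (Fin n)) (w : Fin n → ℝ≥0) :
    2 * ∑ a : Fin n → Bool, ∑ g ∈ B with a g = true, w g = 2 ^ n * ∑ g ∈ B, w g := by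
  have h : ∑ a : Fin n → Bool, ∑ g ∈ B with (!a g) = true, w g =
      ∑ a : Fin n → Bool, ∑ g ∈ B with a g = true, w g :=
    Equiv.sum_comp (ng n) fun a : Fin n → Bool => ∑ g ∈ B with a g = true, w g
  have h2 : ∀ a : Fin n → Bool, ∑ g ∈ B with a g = true, w g + ∑ g ∈ B with (!a g) = true, w g =
      ∑ g ∈ B, w g := fun a => by
    rw [← sum_filter_add_sum_filter_not B fun g => a g = true]
    simp
  rw [two_mul]
  nth_rewrite 2 [← h]
  rw [← sum_add_distrib, sum_congr rfl fun a _ => h2 a]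
  simp

theorem count (hE : M.E = Set.univ) (y : Fin n → Bool → ℝ≥0) (π : Equiv.Perm (Fin n)) :
    2 * ∑ c : Fin n → Bool, ∑ R : Fin n → Bool,
      ∑ g ∈ accepted (rule M) (wt y c) (wt y fun e => !c e) R π, wt y (fun e => !c e) g =
    2 ^ n * ∑ c : Fin n → Bool, opt M (wt y fun e => !c e) := by
  set G : (Fin n → Bool) × (Fin n → Bool) → ℝ≥0 :=
    fun s => ∑ g ∈ univ.filter (bs M y s.1) with s.2 g = true, wt y s.1 g with hG
  have h1 : ∀ s : (Fin n → Bool) × (Fin n → Bool),
      ∑ g ∈ accepted (rule M) (wt y s.1) (wt y fun e => !s.1 e) s.2 π, wt y (fun e => !s.1 e) g =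
        G (st (bs M y) π s n) := by
    intro s
    refine sum_congr ?_ fun g hg => ?_
    · ext g
      simp [mem_acc]
    · simp only [mem_filter, mem_univ, true_and] at hg
      simp only [wt, st_acc π (bs_exch M y) s g hg]
  have h2 := (Finite.injective_iff_bijective.mp (st_inj π (bs_exch M y) n)).sum_comp G
  have h3 : ∑ c : Fin n → Bool, opt M (wt y fun e => !c e) = ∑ c : Fin n → Bool, opt M (wt y c) :=
    Equiv.sum_comp (ng n) fun c : Fin n → Bool => opt M (wt y c)
  have h4 : ∀ c, 2 * ∑ a : Fin n → Bool, G (c, a) = 2 ^ n * opt M (wt y c) := fun c => by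
    rw [opt_eq M hE]
    exact half (univ.filter (bs M y c)) (wt y c)
  rw [← Fintype.sum_prod_type' fun c R => ∑ g ∈ accepted (rule M) (wt y c) (wt y fun e => !c e) R π,
    wt y (fun e => !c e) g, sum_congr rfl fun s _ => h1 s, h2, Fintype.sum_prod_type, mul_sum,
    sum_congr rfl fun c _ => h4 c, ← mul_sum, h3]

/-- the two values of each element -/
def yy (ω : Fin n → ℝ≥0 × ℝ≥0) (e : Fin n) (b : Bool) : ℝ≥0 := if b = true then (ω e).2 else (ω e).1

theorem meas_bs : Measurable fun ω : Fin n → ℝ≥0 × ℝ≥0 => bs M (yy ω) := by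
  refine measurable_pi_lambda _ fun c => ?_
  have hw : ∀ e, Measurable fun ω : Fin n → ℝ≥0 × ℝ≥0 => wt (yy ω) c e := fun e => by
    simp only [wt, yy]
    split_ifs <;> fun_prop
  have h1 : Measurable fun (ω : Fin n → ℝ≥0 × ℝ≥0) (e f : Fin n) =>
      key (wt (yy ω) c) e < key (wt (yy ω) c) f := by
    refine measurable_pi_lambda _ fun e => measurable_pi_lambda _ fun f => ?_
    simp only [key_lt]
    exact (measurableSet_setOfPred.mp (measurableSet_lt (hw e) (hw f))).or
      ((measurableSet_setOfPred.mp (measurableSet_eq_fun (hw e) (hw f))).and measurable_const)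
  exact (measurable_of_finite fun (r : Fin n → Fin n → Prop) (e : Fin n) =>
    e ∉ M.closure {f | r e f}).comp h1

theorem meas_acc (R : Fin n → Bool) (π : Equiv.Perm (Fin n)) (g : Fin n) :
    MeasurableSet {ω : Fin n → ℝ≥0 × ℝ≥0 |
      g ∈ accepted (rule M) (fun e => (ω e).1) (fun e => (ω e).2) R π} := by
  have e : ∀ ω : Fin n → ℝ≥0 × ℝ≥0,
      g ∈ accepted (rule M) (fun e => (ω e).1) (fun e => (ω e).2) R π ↔ _ := fun ω =>
    mem_acc M (yy ω) π (fun _ => false, R) g
  simp only [e]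
  exact measurableSet_setOfPred.mpr ((measurable_of_finite
    fun β : (Fin n → Bool) → Fin n → Prop => β (st β π (fun _ => false, R) n).1 g ∧
      (st β π (fun _ => false, R) n).2 g = true).comp (meas_bs M))

theorem indep_acc (hE : M.E = Set.univ) (S V : Fin n → ℝ≥0) (R : Fin n → Bool)
    (π : Equiv.Perm (Fin n)) : M.Indep (accepted (rule M) S V R π : Set (Fin n)) :=
  indep_InB hE (key_inj _) _ fun g hg =>
    ((mem_acc M (yy fun e => (S e, V e)) π (fun _ => false, R) g).mp hg).1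

/-- exchange sample and value on a set of elements -/
def sw (c : Fin n → Bool) (ω : Fin n → ℝ≥0 × ℝ≥0) (e : Fin n) : ℝ≥0 × ℝ≥0 :=
  if c e = true then (ω e).swap else ω e

theorem sw_pres (D : Fin n → Measure ℝ≥0) [∀ e, IsProbabilityMeasure (D e)] (c : Fin n → Bool) :
    MeasurePreserving (sw c) (Measure.pi fun e => (D e).prod (D e))
      (Measure.pi fun e => (D e).prod (D e)) := by
  refine measurePreserving_pi (f := fun e p => if c e = true then Prod.swap p else p) _ _ fun e => ?_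
  split_ifs
  · exact Measure.measurePreserving_swap
  · exact MeasurePreserving.id _

theorem avg (D : Fin n → Measure ℝ≥0) [∀ e, IsProbabilityMeasure (D e)]
    {F : (Fin n → ℝ≥0 × ℝ≥0) → ℝ≥0∞} (hF : Measurable F) :
    ∫⁻ ω, ∑ c : Fin n → Bool, F (sw c ω) ∂(Measure.pi fun e => (D e).prod (D e)) =
      2 ^ n * ∫⁻ ω, F ω ∂(Measure.pi fun e => (D e).prod (D e)) := by
  rw [lintegral_finsetSum (f := fun c ω => F (sw c ω)) _ fun c _ => hF.comp (sw_pres D c).measurable,
    sum_congr rfl fun c _ => (sw_pres D c).lintegral_comp hF]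
  simp

theorem meas_alg (π : (Fin n → ℝ≥0 × ℝ≥0) → Equiv.Perm (Fin n))
    (hm : ∀ σ, MeasurableSet {ω | π ω = σ}) :
    Measurable fun ω : Fin n → ℝ≥0 × ℝ≥0 => ∑ R : Fin n → Bool,
      ∑ g ∈ accepted (rule M) (fun e => (ω e).1) (fun e => (ω e).2) R (π ω), ((ω g).2 : ℝ≥0∞) := by
  have hA := meas_acc M
  generalize rule M = ρ at hA ⊢
  refine Finset.measurable_sum _ fun R _ => ?_
  have e : ∀ ω : Fin n → ℝ≥0 × ℝ≥0,
      ∑ g ∈ accepted ρ (fun e => (ω e).1) (fun e => (ω e).2) R (π ω), ((ω g).2 : ℝ≥0∞) =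
      ∑ g, if g ∈ accepted ρ (fun e => (ω e).1) (fun e => (ω e).2) R (π ω) then ((ω g).2 : ℝ≥0∞)
        else 0 := fun ω => (sum_ite_mem_eq _ _).symm
  rw [funext e]
  refine Finset.measurable_sum _ fun g _ => Measurable.ite ?_ (by fun_prop) measurable_const
  have : {ω : Fin n → ℝ≥0 × ℝ≥0 | g ∈ accepted ρ (fun e => (ω e).1) (fun e => (ω e).2) R (π ω)} =
      ⋃ σ, {ω | π ω = σ} ∩ {ω | g ∈ accepted ρ (fun e => (ω e).1) (fun e => (ω e).2) R σ} := by
    ext ω
    simp
  rw [this]
  exact MeasurableSet.iUnion fun σ => (hm σ).inter (hA R σ g)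

theorem meas_opt (hE : M.E = Set.univ) :
    Measurable fun ω : Fin n → ℝ≥0 × ℝ≥0 => (opt M (fun e => (ω e).2) : ℝ≥0∞) := by
  have e : ∀ ω : Fin n → ℝ≥0 × ℝ≥0, (opt M (fun e => (ω e).2) : ℝ≥0∞) =
      ∑ g, if bs M (yy ω) (fun _ => true) g then ((ω g).2 : ℝ≥0∞) else 0 := fun ω => by
    rw [opt_eq M hE, ENNReal.ofNNReal_finsetSum, sum_filter]
    rfl
  rw [funext e]
  refine Finset.measurable_sum _ fun g _ => Measurable.ite ?_ (by fun_prop) measurable_const
  exact measurableSet_setOfPred.mpr ((measurable_pi_apply g).comp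
    ((measurable_pi_apply fun _ => true).comp (meas_bs M)))

theorem main (hE : M.E = Set.univ) (D : Fin n → Measure ℝ≥0) [∀ e, IsProbabilityMeasure (D e)]
    (π : (Fin n → ℝ≥0 × ℝ≥0) → Equiv.Perm (Fin n)) (hm : ∀ σ, MeasurableSet {ω | π ω = σ})
    (hs : ∀ ω ω', (∀ e, ω' e = ω e ∨ ω' e = (ω e).swap) → π ω' = π ω) :
    2 * ∫⁻ ω, ∑ R : Fin n → Bool, ∑ g ∈ accepted (rule M) (fun e => (ω e).1) (fun e => (ω e).2) R (π ω),
        ((ω g).2 : ℝ≥0∞) ∂(Measure.pi fun e => (D e).prod (D e)) =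
      2 ^ n * ∫⁻ ω, opt M (fun e => (ω e).2) ∂(Measure.pi fun e => (D e).prod (D e)) := by
  have m1 := meas_alg M π hm
  have m2 := meas_opt M hE
  have h2 : (2 : ℝ≥0∞) ^ n ≠ 0 := pow_ne_zero _ two_ne_zero
  have h2' : (2 : ℝ≥0∞) ^ n ≠ ⊤ := ENNReal.pow_ne_top ENNReal.ofNat_ne_top
  refine (ENNReal.mul_right_inj h2 h2').mp ?_
  rw [mul_left_comm, ← avg D m1, ← avg D m2, ← lintegral_const_mul' _ _ ENNReal.ofNat_ne_top,
    ← lintegral_const_mul' _ _ h2']
  refine lintegral_congr fun ω => ?_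
  have e1 : ∀ c, (fun e => (sw c ω e).1) = wt (yy ω) c := fun c => by
    funext e
    simp only [sw, wt, yy]
    split_ifs <;> rfl
  have e2 : ∀ c, (fun e => (sw c ω e).2) = wt (yy ω) fun e => !c e := fun c => by
    funext e
    cases h : c e <;> simp [sw, wt, yy, h]
  have e3 : ∀ c, π (sw c ω) = π ω := fun c => hs _ _ fun e => by
    simp only [sw]
    split_ifs <;> simp
  have e4 : ∀ c g, (sw c ω g).2 = wt (yy ω) (fun e => !c e) g := fun c g => congrFun (e2 c) g
  simp only [e1, e3, e4]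
  have := congrArg ((↑) : ℝ≥0 → ℝ≥0∞) (count M hE (yy ω) (π ω))
  simp only [ENNReal.coe_mul, ENNReal.coe_pow, ENNReal.coe_ofNat, ENNReal.ofNNReal_finsetSum] at this
  exact this

end Vale.Agent.P331
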