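import Vale.Agent.P331.Defs

open scoped NNReal Classical

namespace Vale.Agent.P331

/-- An online secretary rule on `Fin n`: from a seed of `2 n` bits, the earlier arrivals with their
weights (in order of arrival) and the current arrival with its weight, it decides to accept or not. -/
abbrev SRule (n : ℕ) : Type :=
  (Fin n → Bool) × (Fin n → Bool) → List (Fin n × ℝ≥0) → Fin n × ℝ≥0 → Bool

/-- The set accepted by the secretary rule `ρ` with weights `w`, seed `R` and order `σ`. -/
def hired {n : ℕ} (ρ : SRule n) (w : Fin n → ℝ≥0) (R : (Fin n → Bool) × (Fin n → Bool))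
    (σ : Equiv.Perm (Fin n)) : Finset (Fin n) :=
  Finset.univ.filter fun e => ρ R ((arrivals w σ).take (σ.symm e)) (e, w e) = true

end Vale.Agent.P331
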