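import Vale.Agent.P331.Main
import Vale.Agent.P331.SecDefs

/-!
The secretary rule obtained from the single sample rule.
-/

open Finset Function
open scoped NNReal Classical

namespace Vale.Agent.P331

variable {n : ℕ} (M : Matroid (Fin n))

/-- positions with bit `true` first -/
noncomputable def ord (b : Fin n → Bool) : Equiv.Perm (Fin n) :=
  Tuple.sort fun i => (toLex (!b i, i) : Bool ×ₗ Fin n)

theorem ord_lt (b : Fin n → Bool) {i j : Fin n} (hb : b i = false) (h : b j = true ∨ j < i) :
    (ord b).symm j < (ord b).symm i := by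
  by_contra hc
  have k := Tuple.monotone_sort (fun i => (toLex (!b i, i) : Bool ×ₗ Fin n)) (not_lt.1 hc)
  change (toLex (!b (ord b ((ord b).symm i)), ord b ((ord b).symm i)) : Bool ×ₗ Fin n) ≤
    toLex (!b (ord b ((ord b).symm j)), ord b ((ord b).symm j)) at k
  rw [Equiv.apply_symm_apply, Equiv.apply_symm_apply, Prod.Lex.toLex_le_toLex, hb] at k
  cases hj : b j
  · rw [hj] at k h
    rcases k with k | k
    · exact absurd k (by simp)
    · exact absurd k.2 (not_le.2 (h.resolve_left (by simp)))
  · rw [hj] at k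
    rcases k with k | k
    · exact absurd k (by simp)
    · exact absurd k.1 (by simp)

/-- the secretary rule -/
noncomputable def srule : SRule n := fun s l x =>
  if h : l.length < n then
    (!s.1 (ord s.1 ⟨l.length, h⟩)) && rule M
      (fun e => ∑ j with s.1 j = true ∧ (l.getD ((ord s.1).symm j) x).1 = e,
        (l.getD ((ord s.1).symm j) x).2) s.2
      ((List.ofFn fun j => ((l.getD ((ord s.1).symm j) x).1,
        if s.1 j = true then 0 else (l.getD ((ord s.1).symm j) x).2)).take (ord s.1 ⟨l.length, h⟩)) x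
  else false

/-- weight or zero -/
def yw (w : Fin n → ℝ≥0) (e : Fin n) (b : Bool) : ℝ≥0 := if b = true then w e else 0

theorem mem_hired (w : Fin n → ℝ≥0) (b R : Fin n → Bool) (π : Equiv.Perm (Fin n)) (e : Fin n) :
    e ∈ hired (srule M) w (b, R) (π * ord b) ↔ b (π.symm e) = false ∧
      e ∈ accepted (rule M) (wt (yw w) fun g => b (π.symm g)) (wt (yw w) fun g => !b (π.symm g)) R π := by
  have e0 : (π * ord b).symm e = (ord b).symm (π.symm e) := rfl
  have hl : ((arrivals w (π * ord b)).take ((π * ord b).symm e)).length = (π * ord b).symm e := by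
    simp [arrivals]
  have hlt : ((arrivals w (π * ord b)).take ((π * ord b).symm e)).length < n := by
    rw [hl]; exact Fin.is_lt _
  have e1 : ord b ⟨_, hlt⟩ = π.symm e := by
    rw [← Equiv.eq_symm_apply]
    exact Fin.ext hl
  simp only [hired, accepted, mem_filter, mem_univ, true_and, srule, dif_pos hlt, e1, Bool.and_eq_true,
    Bool.not_eq_eq_eq_not, Bool.not_true]
  refine and_congr_right fun hb => ?_
  have g1 : ∀ j, b j = true ∨ j < π.symm e →
      ((arrivals w (π * ord b)).take ((π * ord b).symm e)).getD ((ord b).symm j) (e, w e) =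
        (π j, w (π j)) := fun j hj => by
    have := ord_lt b hb hj
    rw [List.getD_eq_getElem _ _ (by rw [hl, e0]; exact this)]
    simp [arrivals]
  have s1 : (fun g => ∑ j with b j = true ∧ (((arrivals w (π * ord b)).take
      ((π * ord b).symm e)).getD ((ord b).symm j) (e, w e)).1 = g, (((arrivals w (π * ord b)).take
      ((π * ord b).symm e)).getD ((ord b).symm j) (e, w e)).2) = wt (yw w) fun g => b (π.symm g) := by
    funext g
    rw [sum_filter, sum_eq_single (π.symm g)]
    · by_cases hg : b (π.symm g) = true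
      · rw [g1 _ (.inl hg)]
        simp [hg, wt, yw]
      · simp [hg, wt, yw]
    · intro j _ hj
      refine if_neg fun h => hj ?_
      rw [g1 j (.inl h.1)] at h
      rw [← h.2, Equiv.symm_apply_apply]
    · simp
  have s2 : (List.ofFn fun j => ((((arrivals w (π * ord b)).take
      ((π * ord b).symm e)).getD ((ord b).symm j) (e, w e)).1, if b j = true then 0 else
      (((arrivals w (π * ord b)).take ((π * ord b).symm e)).getD ((ord b).symm j) (e, w e)).2)).take
        (π.symm e) = (arrivals (wt (yw w) fun g => !b (π.symm g)) π).take (π.symm e) := by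
    refine List.ext_getElem (by simp [arrivals]) fun j h1 h2 => ?_
    have hj : j < π.symm e := by
      rw [List.length_take] at h1
      exact h1.trans_le (min_le_left _ _)
    have hn : j < n := hj.trans (Fin.is_lt _)
    rw [List.getElem_take, List.getElem_take, List.getElem_ofFn]
    rw [g1 _ (.inr hj)]
    simp only [arrivals, List.getElem_ofFn, wt, yw, Equiv.symm_apply_apply]
    cases b ⟨j, _⟩ <;> simp
  have s3 : wt (yw w) (fun g => !b (π.symm g)) e = w e := by simp [wt, yw, hb]
  rw [s1, s2, s3]

theorem indep_hired (hE : M.E = Set.univ) (w : Fin n → ℝ≥0) (s : (Fin n → Bool) × (Fin n → Bool))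
    (σ : Equiv.Perm (Fin n)) : M.Indep (hired (srule M) w s σ : Set (Fin n)) := by
  obtain ⟨b, R⟩ := s
  rw [← inv_mul_cancel_right σ (ord b)]
  exact (indep_acc M hE _ _ R _).subset fun e he => ((mem_hired M w b R _ e).1 he).2

theorem sec (hE : M.E = Set.univ) (w : Fin n → ℝ≥0) :
    (n.factorial * 4 ^ n : ℝ≥0) * opt M w ≤ 4 * ∑ σ : Equiv.Perm (Fin n),
      ∑ s : (Fin n → Bool) × (Fin n → Bool), ∑ g ∈ hired (srule M) w s σ, w g := by
  let F : Equiv.Perm (Fin n) → (Fin n → Bool) → ℝ≥0 := fun π c => ∑ R : Fin n → Bool,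
    ∑ g ∈ accepted (rule M) (wt (yw w) c) (wt (yw w) fun e => !c e) R π, wt (yw w) (fun e => !c e) g
  have h1 : ∀ b π, ∑ R : Fin n → Bool, ∑ g ∈ hired (srule M) w (b, R) (π * ord b), w g =
      F π fun g => b (π.symm g) := fun b π => sum_congr rfl fun R _ => by
    rw [← sum_filter_add_sum_filter_not (accepted _ _ _ _ _) fun g => b (π.symm g) = false,
      sum_eq_zero (s := filter (fun g => ¬b (π.symm g) = false) _) fun g hg => by
        have := (mem_filter.1 hg).2
        simp only [Bool.not_eq_false] at this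
        simp [wt, yw, this], add_zero]
    refine sum_congr (by ext g; rw [mem_hired, mem_filter, and_comm]) fun g hg => ?_
    simp [wt, yw, (mem_filter.1 hg).2]
  have h2 : ∑ σ : Equiv.Perm (Fin n), ∑ s : (Fin n → Bool) × (Fin n → Bool),
      ∑ g ∈ hired (srule M) w s σ, w g = ∑ π : Equiv.Perm (Fin n), ∑ c : Fin n → Bool, F π c := by
    simp only [Fintype.sum_prod_type]
    rw [sum_comm, sum_congr rfl fun b _ => (Equiv.sum_comp (Equiv.mulRight (ord b)) _).symm]
    simp only [Equiv.coe_mulRight, h1]
    rw [sum_comm]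
    exact sum_congr rfl fun π _ => Equiv.sum_comp (Equiv.arrowCongr π (Equiv.refl Bool)) (F π)
  have h3 : 2 ^ n * opt M w ≤ 2 * ∑ c : Fin n → Bool, opt M (wt (yw w) fun e => !c e) := by
    rw [opt_eq M hE w, ← half, ← Equiv.sum_comp (ng n)]
    refine mul_le_mul_right (sum_le_sum fun c _ => ?_) 2
    have hI : M.Indep ((univ.filter (InB M (key w))).filter (fun g => ng n c g = true) : Finset (Fin n)) :=
      indep_InB hE (key_inj w) _ fun e he => (mem_filter.mp (mem_filter.mp he).1).2
    refine le_trans (le_of_eq (sum_congr rfl fun g hg => ?_)) (Finset.le_sup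
      (f := fun I : Finset (Fin n) => ∑ e ∈ I, wt (yw w) (fun e => !c e) e) (mem_filter.mpr ⟨mem_univ _, hI⟩))
    have : (!c g) = true := (mem_filter.1 hg).2
    simp only [wt, yw, this, if_true]
  have h4 : ∀ π, (4 ^ n : ℝ≥0) * opt M w ≤ 4 * ∑ c : Fin n → Bool, F π c := fun π => by
    have k := count M hE (yw w) π
    calc (4 ^ n : ℝ≥0) * opt M w = 2 ^ n * (2 ^ n * opt M w) := by
          rw [← mul_assoc, ← mul_pow]; norm_num
      _ ≤ 2 ^ n * (2 * ∑ c : Fin n → Bool, opt M (wt (yw w) fun e => !c e)) := mul_le_mul_right h3 _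
      _ = 2 * (2 * ∑ c : Fin n → Bool, F π c) := by rw [mul_left_comm, ← k]
      _ = _ := by ring
  rw [h2, mul_sum, mul_assoc]
  refine le_trans (le_of_eq ?_) (sum_le_sum fun π _ => h4 π)
  simp [Fintype.card_perm]

end Vale.Agent.P331
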